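import Vale.Agent.P102.Unb

/-!
P102 (Rokhlin's multiple mixing problem): mixing implies mixing of all orders for systems generated
by positively or negatively associated processes.
-/

namespace Vale.Agent.Results.P102.Associated

open MeasureTheory Vale.Agent.P102

universe u v w

theorem result :
    (∀ (Ω : Type u) [MeasurableSpace Ω] (μ : Measure Ω) [IsProbabilityMeasure μ] (T : Ω ≃ᵐ Ω)
      (J : Type v) (ξ : J → Ω → ℝ), MeasurePreserving T μ μ → (∀ j, Measurable (ξ j)) →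
      Generates μ (fam (powers T) ξ) →
      (PosAssoc μ (fam (powers T) ξ) ∨ NegAssoc μ (fam (powers T) ξ)) →
      (MixingOrderZ μ T 2 ∨
        ((∀ j, ∃ C : ℝ, ∀ ω, |ξ j ω| ≤ C) ∧ Decorrelated μ (powers T) ξ)) →
      ∀ k : ℕ, MixingOrderZ μ T k) ∧
    (∀ (G : Type w) [Group G] (Ω : Type u) [MeasurableSpace Ω] (μ : Measure Ω)
      [IsProbabilityMeasure μ] (T : G → Ω → Ω) (J : Type v) (ξ : J → Ω → ℝ), IsAction μ T →
      (∀ j, Measurable (ξ j)) → Generates μ (fam T ξ) →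
      (PosAssoc μ (fam T ξ) ∨ NegAssoc μ (fam T ξ)) →
      (MixingOrder μ T 2 ∨ ((∀ j, ∃ C : ℝ, ∀ ω, |ξ j ω| ≤ C) ∧ Decorrelated μ T ξ)) →
      ∀ k : ℕ, MixingOrder μ T k) :=
  ⟨fun _ _ _ _ _ _ _ hT hξ hgen hA hmix k => mainZ_unb hT hξ hgen hA hmix k,
    fun _ _ _ _ _ _ _ _ _ hT hξ hgen hA hmix k => main_unb hT hξ hgen hA hmix k⟩

end Vale.Agent.Results.P102.Associated
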